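import Mathlib

/-! P329 row A: `A_4 → Z/3` -/

namespace Vale.Agent.H24.GSH.RowA

/-- the image of the partition `{01|23}` -/
def r (σ : Equiv.Perm (Fin 4)) : Fin 3 :=
  if σ 0 = 0 then (if σ 1 = 1 then 0 else if σ 1 = 2 then 1 else 2)
  else if σ 0 = 1 then (if σ 1 = 0 then 0 else if σ 1 = 3 then 1 else 2)
  else if σ 0 = 2 then (if σ 1 = 3 then 0 else if σ 1 = 0 then 1 else 2)
  else (if σ 1 = 2 then 0 else if σ 1 = 1 then 1 else 2)

theorem r_mul : ∀ σ τ : alternatingGroup (Fin 4), r (σ * τ : alternatingGroup (Fin 4)) = r σ + r τ := by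
  decide +kernel

theorem r_sq : ∀ σ : alternatingGroup (Fin 4), r σ = 0 → σ * σ = 1 := by
  decide +kernel

theorem alt_hom : ∃ π : alternatingGroup (Fin 4) →* Multiplicative (ZMod 3),
    ∀ g, π g = 1 → g * g = 1 := by
  refine ⟨{ toFun := fun σ => Multiplicative.ofAdd (r σ : ZMod 3), map_one' := ?_, map_mul' := ?_ },
    ?_⟩
  · rfl
  · intro σ τ
    show Multiplicative.ofAdd (r (σ * τ : alternatingGroup (Fin 4)) : ZMod 3) = _
    rw [r_mul]
    rfl
  · intro σ h
    exact r_sq σ h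

end Vale.Agent.H24.GSH.RowA
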