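import Vale.Agent.H24.GSH.Defs

/-! P329 row G: groups that are elementary abelian 2-groups by `Z/3` (from row D) -/

namespace Vale.Agent.H24.GSH.RowG
open Vale.Agent.H24.GSH Finset

/-- the statement of row D -/
def MachineStmt : Prop :=
  ∀ {α : Type} [Fintype α] [DecidableEq α] (c : α → Fin 3) (a : α) (x y : S),
    H 1 {w : List α | w.foldl (fun s b => bstep s (c b) (decide (b = a))) x = y}

/-- the bit `t` of a state -/
def bitOf (s : S) (t : Fin 3) : Bool := ![s.2.1, s.2.2.1, s.2.2.2] t

theorem bitOf_bstep (s : S) (c : Fin 3) (f : Bool) (t : Fin 3) :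
    bitOf (bstep s c f) t = xor (bitOf s t) (f && decide (s.1.val % 3 = t.val)) := by
  fin_cases t <;> rfl

theorem exists_omega {G : Type} [Group G] (π : G →* Multiplicative (ZMod 3))
    (hker : ∀ g, π g = 1 → g * g = 1) :
    ∃ ω : G, ω ^ 3 = 1 ∧ ∀ g, π (ω ^ (Multiplicative.toAdd (π g)).val) = π g := by
  by_cases h : ∃ g, π g = Multiplicative.ofAdd 1
  · obtain ⟨g, hg⟩ := h
    have h6 : g ^ 3 * g ^ 3 = 1 := by
      apply hker
      rw [map_pow, hg]
      rfl
    refine ⟨g ^ 4, ?_, ?_⟩
    · calc (g ^ 4) ^ 3 = (g ^ 3 * g ^ 3) * (g ^ 3 * g ^ 3) := by group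
        _ = 1 := by rw [h6, one_mul]
    · intro x
      rw [map_pow, map_pow, hg]
      generalize π x = y
      revert y
      decide
  · have htriv : ∀ g, π g = 1 := by
      intro g
      by_contra hne
      apply h
      have : ∀ y : Multiplicative (ZMod 3), y ≠ 1 → y = Multiplicative.ofAdd 1 ∨
          y * y = Multiplicative.ofAdd 1 := by decide
      rcases this _ hne with h1 | h1
      · exact ⟨g, h1⟩
      · exact ⟨g * g, by rw [map_mul]; exact h1⟩
    refine ⟨1, one_pow 3, fun g => ?_⟩
    rw [htriv g, one_pow, map_one]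

theorem omega_step {G : Type} [Group G] (ω : G) (h3 : ω ^ 3 = 1) (u : Fin 6) (c : Fin 3) :
    ω ^ u.val * ω ^ c.val = ω ^ (mv u c).val := by
  rw [← pow_add]
  have key : ∀ m n : ℕ, m % 3 = n % 3 → ω ^ m = ω ^ n := by
    intro m n hmn
    have h : ∀ m : ℕ, ω ^ m = ω ^ (m % 3) := by
      intro m
      conv_lhs => rw [← Nat.div_add_mod m 3, pow_add, pow_mul, h3, one_pow, one_mul]
    rw [h m, h n, hmn]
  apply key
  revert u c
  decide

theorem omega_mod {G : Type} [Group G] (ω : G) (h3 : ω ^ 3 = 1) (m : ℕ) : ω ^ (m % 3) = ω ^ m := by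
  conv_rhs => rw [← Nat.div_add_mod m 3, pow_add, pow_mul, h3, one_pow, one_mul]

theorem group_result_of (hm : MachineStmt) {G : Type} [Group G]
    (π : G →* Multiplicative (ZMod 3))
    (hker : ∀ g, π g = 1 → g * g = 1) {α : Type} [Fintype α] [DecidableEq α] (φ : α → G)
    (T : Set G) : H 1 {w : List α | (w.map φ).prod ∈ T} := by
  classical
  obtain ⟨ω, hω3, hω⟩ := exists_omega π hker
  let c : α → Fin 3 := fun a => (Multiplicative.toAdd (π (φ a)) : ZMod 3)
  have hc : ∀ a, π (ω ^ (c a).val) = π (φ a) := fun a => hω (φ a)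
  let v : α → G := fun a => φ a * (ω ^ (c a).val)⁻¹
  have hv : ∀ a, π (v a) = 1 := by
    intro a
    show π (φ a * (ω ^ (c a).val)⁻¹) = 1
    rw [map_mul, map_inv, hc a, mul_inv_cancel]
  have hcomm : ∀ x y : π.ker, x * y = y * x := by
    intro x y
    have hx : (x : G) * x = 1 := hker x x.2
    have hy : (y : G) * y = 1 := hker y y.2
    have hxy : ((x : G) * y) * (x * y) = 1 := hker _ (x * y).2
    apply Subtype.ext
    show (x : G) * y = y * x
    have h1 : (x : G)⁻¹ = x := inv_eq_of_mul_eq_one_left hx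
    have h2 : (y : G)⁻¹ = y := inv_eq_of_mul_eq_one_left hy
    have h3 : ((x : G) * y)⁻¹ = x * y := inv_eq_of_mul_eq_one_left hxy
    rw [← h3, mul_inv_rev, h1, h2]
  let _ : CommGroup π.ker := { (inferInstance : Group π.ker) with mul_comm := hcomm }
  have hkk : ∀ x : π.ker, x * x = 1 := fun x => Subtype.ext (hker x x.2)
  let k : α × Fin 3 → π.ker := fun p => ⟨ω ^ p.2.val * v p.1 * (ω ^ p.2.val)⁻¹, by
    rw [MonoidHom.mem_ker, map_mul, map_mul, hv, map_inv, mul_one, mul_inv_cancel]⟩
  let st : α → List α → S := fun a w =>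
    w.foldl (fun s b => bstep s (c b) (decide (b = a))) (0, false, false, false)
  let U : List α → Fin 6 := fun w => w.foldl (fun u b => mv u (c b)) 0
  have hst : ∀ a w b, st a (w ++ [b]) = bstep (st a w) (c b) (decide (b = a)) := by
    intro a w b
    simp only [st, List.foldl_append, List.foldl_cons, List.foldl_nil]
  have hUs : ∀ w b, U (w ++ [b]) = mv (U w) (c b) := by
    intro w b
    simp only [U, List.foldl_append, List.foldl_cons, List.foldl_nil]
  have hU : ∀ a w, (st a w).1 = U w := by
    intro a w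
    induction w using List.reverseRecOn with
    | nil => rfl
    | append_singleton w b ih =>
      rw [hst, hUs, ← ih]
      rfl
  let E : List α → π.ker := fun w => ∏ p : α × Fin 3, if bitOf (st p.1 w) p.2 then k p else 1
  have hE : ∀ w b, E (w ++ [b]) = E w * k (b, ⟨(U w).val % 3, Nat.mod_lt _ (by norm_num)⟩) := by
    intro w b
    have h1 : k (b, ⟨(U w).val % 3, Nat.mod_lt _ (by norm_num)⟩) =
        ∏ p : α × Fin 3, if p = (b, ⟨(U w).val % 3, Nat.mod_lt _ (by norm_num)⟩) then k p
          else 1 := by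
      rw [Finset.prod_ite_eq' univ _ k]
      simp
    rw [h1]
    simp only [E]
    rw [← Finset.prod_mul_distrib]
    apply Finset.prod_congr rfl
    rintro ⟨a, t⟩ _
    simp only
    rw [hst, bitOf_bstep, hU]
    by_cases hp : ((a, t) : α × Fin 3) = (b, ⟨(U w).val % 3, Nat.mod_lt _ (by norm_num)⟩)
    · obtain ⟨rfl, rfl⟩ := Prod.mk.inj hp
      simp only [decide_true, Bool.and_self, if_true]
      cases bitOf (st a w) ⟨(U w).val % 3, Nat.mod_lt _ (by norm_num)⟩
      · simp
      · simp [hkk]
    · have h2 : (decide (b = a) && decide ((U w).val % 3 = t.val)) = false := by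
        rw [Bool.and_eq_false_iff]
        by_contra hcon
        push Not at hcon
        obtain ⟨h3, h4⟩ := hcon
        apply hp
        have h5 : b = a := by simpa using h3
        have h6 : (U w).val % 3 = t.val := by simpa using h4
        rw [h5]
        exact Prod.ext rfl (Fin.ext h6.symm)
      rw [h2, if_neg hp]
      simp
  have key : ∀ w, (w.map φ).prod = (E w : G) * ω ^ (U w).val := by
    intro w
    induction w using List.reverseRecOn with
    | nil =>
      have : E [] = 1 := by
        simp only [E]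
        apply Finset.prod_eq_one
        rintro ⟨a, t⟩ _
        have : bitOf (st a []) t = false := by
          simp only [st, List.foldl_nil]
          fin_cases t <;> rfl
        simp [this]
      rw [this]
      simp [U]
    | append_singleton w b ih =>
      rw [List.map_append, List.prod_append, ih, List.map_singleton, List.prod_singleton, hE, hUs,
        ← omega_step ω hω3]
      have h1 : φ b = v b * ω ^ (c b).val := by simp [v]
      have h2 : ((k (b, ⟨(U w).val % 3, Nat.mod_lt _ (by norm_num)⟩) : π.ker) : G) =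
          ω ^ (U w).val * v b * (ω ^ (U w).val)⁻¹ := by
        show ω ^ ((U w).val % 3) * v b * (ω ^ ((U w).val % 3))⁻¹ = _
        rw [omega_mod ω hω3]
      rw [Subgroup.coe_mul, h2, h1]
      group
  have hdet : ∀ w w', (∀ a, st a w = st a w') → (w.map φ).prod = (w'.map φ).prod := by
    intro w w' h
    rcases isEmpty_or_nonempty α with hα | ⟨⟨a⟩⟩
    · have h1 : w = [] := List.eq_nil_iff_forall_not_mem.2 (fun a => (IsEmpty.false a).elim)
      have h2 : w' = [] := List.eq_nil_iff_forall_not_mem.2 (fun a => (IsEmpty.false a).elim)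
      rw [h1, h2]
    · have hEE : E w = E w' := by
        simp only [E]
        apply Finset.prod_congr rfl
        intro p _
        rw [h p.1]
      have hUU : U w = U w' := by rw [← hU a w, ← hU a w', h a]
      rw [key, key, hEE, hUU]
  have hfin := H_iUnion_prop (α := α) (k := 1) (ι := α → S)
    (fun σ => ∃ w0, (∀ a, st a w0 = σ a) ∧ (w0.map φ).prod ∈ T)
    (fun σ => ⋂ a, {w | st a w = σ a})
    (fun σ _ => H_iInter _ (fun a => hm c a (0, false, false, false) (σ a)))
  convert hfin using 1
  ext w
  simp only [Set.mem_setOf_eq, Set.mem_iInter]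
  constructor
  · intro hw
    exact ⟨fun a => st a w, ⟨w, fun a => rfl, hw⟩, fun a => rfl⟩
  · rintro ⟨σ, ⟨w0, h0, hT⟩, hw⟩
    rw [hdet w w0 (fun a => (hw a).trans (h0 a).symm)]
    exact hT

end Vale.Agent.H24.GSH.RowG
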