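import Vale.Agent.H24.GSH.Defs

/-! P329: automata all of whose letters are extensive off the base state -/

namespace Vale.Agent.H24.GSH.Ext
open Vale.Agent.H24.GSH

variable {α Q : Type}

theorem run_app (δ : Q → α → Option Q) (u v : List α) : ∀ q : Q,
    run δ q (u ++ v) = (run δ q u).bind fun q' => run δ q' v := by
  induction u with
  | nil => intro q; rfl
  | cons a u ih =>
    intro q
    show (δ q a).bind (fun q' => run δ q' (u ++ v)) = ((δ q a).bind fun q' => run δ q' u).bind _
    cases h : δ q a with
    | none => rfl
    | some q' =>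
      show run δ q' (u ++ v) = (run δ q' u).bind _
      exact ih q'

theorem run_fix (δ : Q → α → Option Q) (q : Q) (u : List α)
    (hu : ∀ a ∈ u, a ∈ {a | δ q a = some q}) : run δ q u = some q := by
  induction u with
  | nil => rfl
  | cons a u ih =>
    have h1 : δ q a = some q := hu a (by simp)
    show (δ q a).bind (fun q' => run δ q' u) = some q
    rw [h1]
    exact ih (fun b hb => hu b (by simp [hb]))

theorem run_split (δ : Q → α → Option Q) (i j : Q) (w : List α) (h : run δ i w = some j) :
    (i = j ∧ ∀ a ∈ w, a ∈ {a | δ i a = some i}) ∨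
    ∃ (a : α) (i' : Q), (δ i a = some i' ∧ i' ≠ i) ∧ ∃ u v, (∀ a ∈ u, a ∈ {a | δ i a = some i}) ∧
      run δ i' v = some j ∧ w = u ++ ([a] ++ v) := by
  induction w with
  | nil =>
    left
    have : i = j := Option.some.inj h
    exact ⟨this, by simp⟩
  | cons b w ih =>
    have h' : (δ i b).bind (fun q' => run δ q' w) = some j := h
    cases hb : δ i b with
    | none => rw [hb] at h'; exact absurd h' (by simp)
    | some i' =>
      rw [hb] at h'
      have h2 : run δ i' w = some j := h'
      by_cases hi : i' = i
      · subst hi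
        rcases ih h2 with ⟨h3, h4⟩ | ⟨a, i'', h3, u, v, h4, h5, h6⟩
        · left
          refine ⟨h3, ?_⟩
          intro a ha
          rcases List.mem_cons.1 ha with rfl | ha
          · exact hb
          · exact h4 a ha
        · right
          refine ⟨a, i'', h3, b :: u, v, ?_, h5, by rw [h6]; rfl⟩
          intro c hc
          rcases List.mem_cons.1 hc with rfl | hc
          · exact hb
          · exact h4 c hc
      · right
        exact ⟨b, i', ⟨hb, hi⟩, [], w, by simp, h2, rfl⟩

/-- Row S for extensive letters (the `R`-trivial case of Schützenberger's theorem) -/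
theorem sf_ext [Fintype α] [Fintype Q] [LinearOrder Q]
    (δ : Q → α → Option Q) (hm : ∀ q a q', δ q a = some q' → q ≤ q') (i j : Q) :
    H 0 {w : List α | run δ i w = some j} := by
  induction i using WellFoundedGT.induction with
  | ind i ih =>
    have h1 : H 0 {w : List α | i = j ∧ ∀ a ∈ w, a ∈ {a | δ i a = some i}} := by
      by_cases hij : i = j
      · simpa [hij] using H_over {a | δ i a = some i}
      · simpa [hij] using (H_empty (α := α) (k := 0))
    have h2 := H_iUnion_prop (α := α) (k := 0) (ι := α × Q)
      (fun p => δ i p.1 = some p.2 ∧ p.2 ≠ i)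
      (fun p => cat {w | ∀ a ∈ w, a ∈ {a | δ i a = some i}} (cat {[p.1]}
        {w | run δ p.2 w = some j}))
      (fun p hp => (H_over _).cat ((H_letter p.1).cat
        (ih p.2 (lt_of_le_of_ne (hm i p.1 p.2 hp.1) (Ne.symm hp.2)))))
    convert h1.union h2 using 1
    ext w
    constructor
    · intro h
      rcases run_split δ i j w h with h3 | ⟨a, i', h3, u, v, h4, h5, h6⟩
      · exact Or.inl h3
      · exact Or.inr ⟨(a, i'), h3, u, h4, [a] ++ v, ⟨[a], rfl, v, h5, rfl⟩, h6⟩
    · rintro (⟨rfl, h3⟩ | ⟨⟨a, i'⟩, ⟨h3, -⟩, u, h4, x, ⟨y, hy, v, h5, rfl⟩, rfl⟩)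
      · exact run_fix δ i w h3
      · obtain rfl : y = [a] := hy
        show run δ i (u ++ ([a] ++ v)) = some j
        rw [run_app, run_fix δ i u h4]
        show run δ i ([a] ++ v) = some j
        show (δ i a).bind (fun q' => run δ q' v) = some j
        have h3' : δ i a = some i' := h3
        rw [h3']
        exact h5

end Vale.Agent.H24.GSH.Ext
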