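import Vale.Agent.H25.GSH.Ext
import Vale.Agent.H24.GSH.C

/-! P329: permutation groups generated by increasing cycles through the base point -/

namespace Vale.Agent.H24.GSH.Perm
open Vale.Agent.H24.GSH

/-- criterion for extensive letters -/
theorem crit_ext {α Q : Type} [Fintype α] [DecidableEq α] [Fintype Q] [LinearOrder Q]
    (δ : Option Q → α → Option Q)
    (hm : ∀ q a q', δ (some q) a = some q' → q ≤ q') (i j : Option Q) :
    H 1 {w : List α | w.foldl δ i = j} :=
  RowC.criterion_of δ (fun i j => Ext.sf_ext _ (fun q a q' h => hm q a q' h) i j) i j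

theorem perm_of {Q α : Type} [Fintype Q] [DecidableEq Q]
    (φ : α → Equiv.Perm (Option Q))
    (hC : ∀ i j : Option Q, H 1 {w : List α | w.foldl (fun x a => (φ a)⁻¹ x) i = j})
    (T : Set (Equiv.Perm (Option Q))) :
    H 1 {w : List α | (w.map φ).prod ∈ T} := by
  have hfold : ∀ (w : List α) (x : Option Q),
      w.foldl (fun x a => (φ a)⁻¹ x) x = ((w.map φ).prod)⁻¹ x := by
    intro w
    induction w with
    | nil => intro x; simp
    | cons a w ih =>
      intro x
      rw [List.foldl_cons, ih, List.map_cons, List.prod_cons, mul_inv_rev, Equiv.Perm.mul_apply]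
  have hE : ∀ (g : Equiv.Perm (Option Q)), H 1 {w : List α | (w.map φ).prod = g} := by
    intro g
    have h1 : H 1 (⋂ x : Option Q, {w : List α | w.foldl (fun x a => (φ a)⁻¹ x) x = g⁻¹ x}) :=
      H_iInter _ (fun x => hC x (g⁻¹ x))
    have e : {w : List α | (w.map φ).prod = g} =
        ⋂ x : Option Q, {w : List α | w.foldl (fun x a => (φ a)⁻¹ x) x = g⁻¹ x} := by
      ext w
      simp only [Set.mem_setOf_eq, Set.mem_iInter, hfold]
      constructor
      · rintro rfl x; rfl
      · intro h
        have : ((w.map φ).prod)⁻¹ = g⁻¹ := Equiv.ext h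
        exact inv_injective this
    rw [e]; exact h1
  have h2 := H_iUnion_prop (fun g => g ∈ T) (fun g => {w : List α | (w.map φ).prod = g})
    (fun g _ => hE g)
  have e2 : {w : List α | (w.map φ).prod ∈ T} =
      {w : List α | ∃ g, g ∈ T ∧ w ∈ {w : List α | (w.map φ).prod = g}} := by
    ext w
    simp
  rw [e2]; exact h2

theorem inv_app {X : Type} (g : Equiv.Perm X) {x y : X} (h : g⁻¹ x = y) : g y = x := by
  rw [← h]; simp

/-- all letters move points down (off the base), so their inverses are extensive -/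
theorem perm_desc {Q α : Type} [Fintype Q] [LinearOrder Q] [Fintype α] [DecidableEq α]
    (φ : α → Equiv.Perm (Option Q))
    (hφ : ∀ a (p p' : Q), φ a (some p) = some p' → p' ≤ p) (T : Set (Equiv.Perm (Option Q))) :
    H 1 {w : List α | (w.map φ).prod ∈ T} := by
  apply perm_of φ _ T
  intro i j
  apply crit_ext (fun x a => (φ a)⁻¹ x)
  intro q a q' h
  apply hφ a q' q
  rw [← h]
  simp

theorem perm_asc {Q α : Type} [Fintype Q] [LinearOrder Q] [Fintype α] [DecidableEq α]
    (φ : α → Equiv.Perm (Option Q))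
    (hφ : ∀ a (p p' : Q), φ a (some p) = some p' → p ≤ p') (T : Set (Equiv.Perm (Option Q))) :
    H 1 {w : List α | (w.map φ).prod ∈ T} := by
  apply perm_of φ _ T
  intro i j
  have := crit_ext (Q := Qᵒᵈ) (fun (x : Option Qᵒᵈ) a => ((φ a)⁻¹ x : Option Q)) (by
    intro q a q' h
    exact hφ a q' q (inv_app (φ a) h)) i j
  exact this

end Vale.Agent.H24.GSH.Perm
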